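import Vale.Agent.Lib.P007.Quartic

/-!
# P007: the literal form of Q1 fails in degree four
-/

open MeasureTheory Filter NumberField Vale.Agent.Lib.P007

namespace Vale.Agent.Results.P007.QuarticCounterexample

/-- There is a sequence of totally real quartic fields `K_i` with `|Disc K_i| → ∞` such that, for
every ordering of the real embeddings, no sequence of probability measures carried by the packets
of the maximal orders (in particular not the sequence of packet measures), and no subsequence of
it, converges weakly to the invariant probability measure on the space of lattices of `ℝ⁴`. -/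
theorem result :
    ∃ (K : ℕ → Type) (_ : ∀ i, Field (K i)) (_ : ∀ i, NumberField (K i))
      (_ : ∀ i, IsTotallyReal (K i)),
      (∀ i, Module.finrank ℚ (K i) = 4) ∧
      (∀ i, Nonempty (Fin 4 ≃ (K i →+* ℝ))) ∧
      Tendsto (fun i => |discr (K i)|) atTop atTop ∧
      ∀ (σ : ∀ i, Fin 4 ≃ (K i →+* ℝ))
        [MeasurableSpace (LatticeSpace 4)] [BorelSpace (LatticeSpace 4)]
        (m : Measure (LatticeSpace 4)) [IsProbabilityMeasure m]
        [SMulInvariantMeasure (SLR 4) (LatticeSpace 4) m]
        (μ : ℕ → Measure (LatticeSpace 4)) [∀ i, IsProbabilityMeasure (μ i)],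
        (∀ i, ∀ᵐ x ∂(μ i), x ∈ packetSet (integralClosure ℤ (K i)).toSubring (σ i)) →
        ∀ φ : ℕ → ℕ, StrictMono φ → ¬ ConvergesWeakly (fun i => μ (φ i)) m := by
  refine ⟨Kq, inferInstance, inferInstance, inferInstance, finrank_Kq,
    fun i => ⟨enumEmb (Kq i) (finrank_Kq i)⟩, tendsto_discr, ?_⟩
  intro σ _ _ m _ _ μ _ hμ φ _ hconv
  have hP : (Polynomial.X ^ 2 - Polynomial.C 2 : Polynomial ℤ) ≠ 0 :=
    (Polynomial.monic_X_pow_sub_C 2 (by norm_num)).ne_zero
  have hev := eventually_no_root 4 (fun i => Kq (φ i)) (fun i => σ (φ i))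
    (fun i => (integralClosure ℤ (Kq (φ i))).toSubring) m (fun i => μ (φ i)) (fun i => hμ (φ i))
    hconv _ hP
  obtain ⟨i, hi⟩ := hev.exists
  exact s2_irrational (φ i) (hi (s2 (φ i)) (s2_integral (φ i)) (s2_root (φ i)))

end Vale.Agent.Results.P007.QuarticCounterexample
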