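import Vale.Agent.Lib.P007.Obstruction

/-!
# P007: a necessary condition for equidistribution of torus packets (subfield obstruction)
-/

open MeasureTheory Filter NumberField Vale.Agent.Lib.P007

namespace Vale.Agent.Results.P007.SubfieldObstruction

/-- Let `(K_i, O_i, σ_i)` be totally real fields with `n` real embeddings, enumerated by `σ_i`, and
orders `O_i`.  Let `μ_i` be probability measures carried by the packets of `(O_i, σ_i)` (for
instance the packet measures).  If `μ_i` converges weakly to the invariant probability measure on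
the space of lattices, then for every nonzero integer polynomial `P`, for all large `i`, the order
`O_i` contains no irrational root of `P`. -/
theorem result (n : ℕ)
    (K : ℕ → Type) [∀ i, Field (K i)] [∀ i, NumberField (K i)] [∀ i, IsTotallyReal (K i)]
    (σ : ∀ i, Fin n ≃ (K i →+* ℝ)) (O : ∀ i, Subring (K i)) (_hO : ∀ i, IsOrder (O i))
    [MeasurableSpace (LatticeSpace n)] [BorelSpace (LatticeSpace n)]
    (m : Measure (LatticeSpace n)) [IsProbabilityMeasure m]
    [SMulInvariantMeasure (SLR n) (LatticeSpace n) m]
    (μ : ℕ → Measure (LatticeSpace n)) [∀ i, IsProbabilityMeasure (μ i)]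
    (hμ : ∀ i, ∀ᵐ x ∂(μ i), x ∈ packetSet (O i) (σ i))
    (hconv : ConvergesWeakly μ m) (P : Polynomial ℤ) (hP : P ≠ 0) :
    ∀ᶠ i in atTop, ∀ θ ∈ O i, Polynomial.aeval θ P = 0 → θ ∈ (algebraMap ℚ (K i)).range :=
  eventually_no_root n K σ O m μ hμ hconv P hP

end Vale.Agent.Results.P007.SubfieldObstruction
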