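import Vale.Agent.Results.P007.CompositeCounterexample
import Vale.Agent.Results.P007.QuarticCounterexample
import Vale.Agent.Results.P007.SubfieldDiscriminants
import Vale.Agent.Results.P007.SubfieldObstruction

/-!
# P007: the counterexamples in composite degree and the subfield obstructions, in one statement
-/

open MeasureTheory Filter NumberField Vale.Agent.Lib.P007

namespace Vale.Agent.Results.P007.A_Combined

theorem result :
    (∀ a b : ℕ, 2 ≤ a → 2 ≤ b →
    ∃ (K : Type) (_ : Field K) (_ : NumberField K) (_ : IsTotallyReal K) (O : ℕ → Subring K),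
      Module.finrank ℚ K = a * b ∧
      Nonempty (Fin (a * b) ≃ (K →+* ℝ)) ∧
      (∀ i, IsOrder (O i)) ∧
      Tendsto (fun i => |discr K| *
        ((O i).toAddSubgroup.relIndex (integralClosure ℤ K).toSubring.toAddSubgroup : ℤ) ^ 2)
        atTop atTop ∧
      (∀ (i : ℕ) (σ : Fin (a * b) ≃ (K →+* ℝ)), (packetSet (O i) σ).Nonempty) ∧
      ∀ (σ : ℕ → Fin (a * b) ≃ (K →+* ℝ))
        [MeasurableSpace (LatticeSpace (a * b))] [BorelSpace (LatticeSpace (a * b))]
        (m : Measure (LatticeSpace (a * b))) [IsProbabilityMeasure m]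
        [SMulInvariantMeasure (SLR (a * b)) (LatticeSpace (a * b)) m]
        (μ : ℕ → Measure (LatticeSpace (a * b))) [∀ i, IsProbabilityMeasure (μ i)],
        (∀ i, ∀ᵐ x ∂(μ i), x ∈ packetSet (O i) (σ i)) →
        ∀ φ : ℕ → ℕ, StrictMono φ → ¬ ConvergesWeakly (fun i => μ (φ i)) m) ∧
    (∃ (K : ℕ → Type) (_ : ∀ i, Field (K i)) (_ : ∀ i, NumberField (K i))
      (_ : ∀ i, IsTotallyReal (K i)),
      (∀ i, Module.finrank ℚ (K i) = 4) ∧
      (∀ i, Nonempty (Fin 4 ≃ (K i →+* ℝ))) ∧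
      Tendsto (fun i => |discr (K i)|) atTop atTop ∧
      ∀ (σ : ∀ i, Fin 4 ≃ (K i →+* ℝ))
        [MeasurableSpace (LatticeSpace 4)] [BorelSpace (LatticeSpace 4)]
        (m : Measure (LatticeSpace 4)) [IsProbabilityMeasure m]
        [SMulInvariantMeasure (SLR 4) (LatticeSpace 4) m]
        (μ : ℕ → Measure (LatticeSpace 4)) [∀ i, IsProbabilityMeasure (μ i)],
        (∀ i, ∀ᵐ x ∂(μ i), x ∈ packetSet (integralClosure ℤ (K i)).toSubring (σ i)) →
        ∀ φ : ℕ → ℕ, StrictMono φ → ¬ ConvergesWeakly (fun i => μ (φ i)) m) ∧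
    (∀ (n : ℕ)
      (K : ℕ → Type) [∀ i, Field (K i)] [∀ i, NumberField (K i)] [∀ i, IsTotallyReal (K i)]
      (σ : ∀ i, Fin n ≃ (K i →+* ℝ)) (O : ∀ i, Subring (K i)), (∀ i, IsOrder (O i)) →
      ∀ [MeasurableSpace (LatticeSpace n)] [BorelSpace (LatticeSpace n)]
      (m : Measure (LatticeSpace n)) [IsProbabilityMeasure m]
      [SMulInvariantMeasure (SLR n) (LatticeSpace n) m]
      (μ : ℕ → Measure (LatticeSpace n)) [∀ i, IsProbabilityMeasure (μ i)],
      (∀ i, ∀ᵐ x ∂(μ i), x ∈ packetSet (O i) (σ i)) → ConvergesWeakly μ m →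
      (∀ B : ℕ, ∀ᶠ i in atTop, ∀ F : IntermediateField ℚ (K i), F ≠ ⊥ →
        (∀ x ∈ F, IsIntegral ℤ x → x ∈ O i) → (B : ℤ) < |discr F|) ∧
      (∀ P : Polynomial ℤ, P ≠ 0 →
        ∀ᶠ i in atTop, ∀ θ ∈ O i, Polynomial.aeval θ P = 0 → θ ∈ (algebraMap ℚ (K i)).range)) :=
  ⟨fun a b ha hb => Vale.Agent.Results.P007.CompositeCounterexample.result a b ha hb,
    Vale.Agent.Results.P007.QuarticCounterexample.result,
    fun n K _ _ _ σ O hO _ _ m _ _ μ _ hμ hconv =>
      ⟨fun B => Vale.Agent.Results.P007.SubfieldDiscriminants.result n K σ O hO m μ hμ hconv B,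
        fun P hP => Vale.Agent.Results.P007.SubfieldObstruction.result n K σ O hO m μ hμ hconv P hP⟩⟩

end Vale.Agent.Results.P007.A_Combined
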