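import Vale.Agent.Lib.P007.CompositeField
import Vale.Agent.Lib.P007.Orders
import Vale.Agent.Lib.P007.Nonempty

/-!
# P007: the literal form of Q1 fails in every composite degree
-/

open MeasureTheory Filter NumberField Vale.Agent.Lib.P007

namespace Vale.Agent.Results.P007.CompositeCounterexample

/-- For every composite `n = a b` there are a totally real field `K` of degree `n` and orders
`O_i` of `K` with `|Disc O_i| = |Disc K| [O_K : O_i]² → ∞` such that, for all orderings of the real
embeddings, the packets are nonempty, and no sequence of probability measures carried by the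
packets of the `O_i` (in particular not the sequence of packet measures), and no subsequence of it,
converges weakly to the invariant probability measure on the space of lattices of `ℝⁿ`. -/
theorem result (a b : ℕ) (ha : 2 ≤ a) (hb : 2 ≤ b) :
    ∃ (K : Type) (_ : Field K) (_ : NumberField K) (_ : IsTotallyReal K) (O : ℕ → Subring K),
      Module.finrank ℚ K = a * b ∧
      Nonempty (Fin (a * b) ≃ (K →+* ℝ)) ∧
      (∀ i, IsOrder (O i)) ∧
      Tendsto (fun i => |discr K| *
        ((O i).toAddSubgroup.relIndex (integralClosure ℤ K).toSubring.toAddSubgroup : ℤ) ^ 2)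
        atTop atTop ∧
      (∀ (i : ℕ) (σ : Fin (a * b) ≃ (K →+* ℝ)), (packetSet (O i) σ).Nonempty) ∧
      ∀ (σ : ℕ → Fin (a * b) ≃ (K →+* ℝ))
        [MeasurableSpace (LatticeSpace (a * b))] [BorelSpace (LatticeSpace (a * b))]
        (m : Measure (LatticeSpace (a * b))) [IsProbabilityMeasure m]
        [SMulInvariantMeasure (SLR (a * b)) (LatticeSpace (a * b)) m]
        (μ : ℕ → Measure (LatticeSpace (a * b))) [∀ i, IsProbabilityMeasure (μ i)],
        (∀ i, ∀ᵐ x ∂(μ i), x ∈ packetSet (O i) (σ i)) →
        ∀ φ : ℕ → ℕ, StrictMono φ → ¬ ConvergesWeakly (fun i => μ (φ i)) m := by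
  have hN : a * b - 1 + 1 = a * b := Nat.sub_add_cancel (Nat.mul_pos (by omega) (by omega))
  have hfin : Module.finrank ℚ (Kc (a * b - 1)) = a * b := by rw [finrank_Kc, hN]
  have hord : ∀ i : ℕ, IsOrder (ordS (αc a b) (αc_integral a b) (i + 1)) := fun i =>
    isOrder_ordS _ _ _ (by omega)
  refine ⟨Kc (a * b - 1), inferInstance, inferInstance, inferInstance,
    fun i => ordS (αc a b) (αc_integral a b) (i + 1), hfin, ⟨enumEmb _ hfin⟩, hord, ?_,
    fun i σ => packetSet_nonempty _ (hord i) σ, ?_⟩
  · have ht := tendsto_relIndex (αc a b) (αc_integral a b) (adjoin_αc_ne_top (by omega) hb)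
    have ht2 : Tendsto (fun i : ℕ => (((ordS (αc a b) (αc_integral a b) (i + 1)).toAddSubgroup.relIndex
        (maxOrder (Kc (a * b - 1))).toAddSubgroup : ℕ) : ℤ)) atTop atTop :=
      tendsto_natCast_atTop_atTop.comp ht
    refine tendsto_atTop_mono (fun i => ?_) ht2
    have hd : 1 ≤ |discr (Kc (a * b - 1))| := Int.one_le_abs (discr_ne_zero _)
    set N : ℤ := (((ordS (αc a b) (αc_integral a b) (i + 1)).toAddSubgroup.relIndex
        (maxOrder (Kc (a * b - 1))).toAddSubgroup : ℕ) : ℤ) with hNdef
    have hN0 : 0 ≤ N := by positivity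
    show N ≤ |discr (Kc (a * b - 1))| * N ^ 2
    nlinarith [mul_nonneg hN0 hN0, sq_nonneg (N - 1), sq_nonneg N]
  · intro σ _ _ m _ _ μ _ hμ φ _ hconv
    have hP : dpoly ((2 : ℤ) ^ b) a ≠ 0 := (dpoly_monic _ a (by omega)).ne_zero
    have hev := eventually_no_root (a * b) (fun _ => Kc (a * b - 1)) (fun i => σ (φ i))
      (fun i => ordS (αc a b) (αc_integral a b) (φ i + 1)) m (fun i => μ (φ i))
      (fun i => hμ (φ i)) hconv _ hP
    obtain ⟨i, hi⟩ := hev.exists
    exact αc_irrational ha (by omega)
      (hi (αc a b) (α_mem_ordS _ _ _) (αc_root (by omega) (by omega)))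

end Vale.Agent.Results.P007.CompositeCounterexample
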